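import Vale.Agent.P080.Main

namespace Vale.Agent.Results.P080.QuasiconcaveC1

open Set Metric Filter Topology Vale.Agent.P080

theorem result (d : ℕ) (hd : 0 < d) (Ω : Set (E d)) (hΩ : IsOpen Ω) (u : E d → ℝ)
    (hu : IsInfHarmonicOn u Ω) :
    (∀ r : ℝ, 0 < r →
      (∀ x ∈ ballExtremumPoints u Ω r, DifferentiableAt ℝ u x) ∧
      ContinuousOn (fderiv ℝ u) (ballExtremumPoints u Ω r)) ∧
    Ω ⊆ closure (⋃ r > 0, ballExtremumPoints u Ω r) ∧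
    ((∀ x₀ ∈ Ω, ∃ r > 0, ∀ᶠ x in 𝓝 x₀, x ∈ ballExtremumPoints u Ω r) →
      ContDiffOn ℝ 1 u Ω) ∧
    ((∀ x₀ ∈ Ω, ∃ ρ > 0, ball x₀ ρ ⊆ Ω ∧
        (QuasiconcaveOn ℝ (ball x₀ ρ) u ∨ QuasiconvexOn ℝ (ball x₀ ρ) u)) →
      ContDiffOn ℝ 1 u Ω) := by
  haveI : Nonempty (Fin d) := ⟨⟨0, hd⟩⟩
  haveI : Nontrivial (E d) := inferInstance
  exact ⟨fun r hr => main_relative hΩ hu hr, main_dense hΩ hu, main_c1 hΩ hu, main_quasi hΩ hu⟩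

end Vale.Agent.Results.P080.QuasiconcaveC1
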